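import Vale.Agent.P233.Bd3.B1

/-!
# P233, block A5i: strong convergence of gradients from a one-sided Laplacian bound

Static theorem in the abstract calculus. `u n → v` locally in `L²`, bounded gradients and
`Δ (u n) ≤ Lam` weakly imply that the gradients converge strongly, locally in `L²`.
-/

set_option linter.all false

open MeasureTheory Filter Topology
open scoped ENNReal NNReal

namespace Vale.Agent.P233

variable {M : Type*} [MeasurableSpace M] {m : Measure M} {C : Calc m}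

namespace H169

/-- the smooth truncation `d * arctan (s / d)` -/
noncomputable def tr (d s : ℝ) : ℝ := d * Real.arctan (s / d)

/-- its derivative -/
noncomputable def tr' (d s : ℝ) : ℝ := 1 / (1 + (s / d) ^ 2)

theorem tr_cont (d : ℝ) : Continuous (tr d) := by unfold tr; fun_prop

theorem tr'_cont (d : ℝ) : Continuous (tr' d) := by
  unfold tr'
  refine Continuous.div continuous_const (by fun_prop) fun s => ?_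
  positivity

theorem tr_deriv {d : ℝ} (hd : 0 < d) (s : ℝ) : HasDerivAt (tr d) (tr' d s) s := by
  unfold tr tr'
  have h1 : HasDerivAt (fun s : ℝ => s / d) (1 / d) s := (hasDerivAt_id s).div_const d
  have h2 := (Real.hasDerivAt_arctan (s / d)).comp s h1
  have h3 := h2.const_mul d
  refine h3.congr_deriv ?_
  field_simp

theorem tr_zero (d : ℝ) : tr d 0 = 0 := by simp [tr]

theorem tr'_pos (d s : ℝ) : 0 < tr' d s := by unfold tr'; positivity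

theorem tr'_le_one (d s : ℝ) : tr' d s ≤ 1 := by
  unfold tr'
  rw [div_le_one (by positivity)]
  nlinarith [sq_nonneg (s / d)]

theorem tr'_half {d s : ℝ} (hd : 0 < d) (hs : |s| ≤ d) : 1 / 2 ≤ tr' d s := by
  unfold tr'
  have h1 : (s / d) ^ 2 ≤ 1 := by
    rw [div_pow, div_le_one (by positivity)]
    exact sq_le_sq' (by linarith [(abs_le.1 hs).1]) (abs_le.1 hs).2
  exact one_div_le_one_div_of_le (by positivity) (by linarith)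

theorem abs_tr_le {d : ℝ} (hd : 0 < d) (s : ℝ) : |tr d s| ≤ |s| := by
  unfold tr
  rw [abs_mul, abs_of_pos hd]
  calc d * |Real.arctan (s / d)| ≤ d * |s / d| :=
        mul_le_mul_of_nonneg_left (abs_arctan_le _) hd.le
    _ = |s| := by rw [abs_div, abs_of_pos hd]; field_simp

theorem abs_tr_le_two {d : ℝ} (hd : 0 < d) (s : ℝ) : |tr d s| ≤ 2 * d := by
  unfold tr
  rw [abs_mul, abs_of_pos hd, mul_comm]
  refine mul_le_mul_of_nonneg_right ?_ hd.le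
  have h1 := Real.arctan_lt_pi_div_two (s / d)
  have h2 := Real.neg_pi_div_two_lt_arctan (s / d)
  have h3 := Real.pi_lt_four
  rw [abs_le]
  constructor <;> linarith



theorem pt_ineq {P G V D U W Z f L d K : ℝ} (hd : 0 < d) (p0 : 0 < P) (p1 : P ≤ 1)
    (hph : |f| ≤ d → 1 / 2 ≤ P) (hG : 0 ≤ G) (hV : 0 ≤ V) (hcs : D ^ 2 ≤ G * V)
    (he : P * G = U - W - P * D) (hG4 : G ≤ 4 * L ^ 2) (hZ : |Z| ≤ K) :
    Z ^ 2 * G ≤ 8 / 3 * (Z ^ 2 * U - Z ^ 2 * W + K ^ 2 * V)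
      + 4 * L ^ 2 / d ^ 2 * (Z * f) ^ 2 := by
  have b1 : |D| ≤ G / 4 + V := by
    refine abs_le_of_sq_le_sq ?_ (by positivity)
    nlinarith [sq_nonneg (G / 4 - V)]
  have b2 : P * G ≤ 4 / 3 * (U - W) + 4 / 3 * V := by
    have c2 : -(P * D) ≤ P * (G / 4) + V := by
      have c3 : -(P * D) ≤ P * |D| := by
        have := mul_le_mul_of_nonneg_left (neg_abs_le D) p0.le
        linarith
      have c4 : P * |D| ≤ P * (G / 4 + V) := mul_le_mul_of_nonneg_left b1 p0.le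
      have c5 : P * V ≤ V := by nlinarith
      nlinarith
    nlinarith
  have b3 : G ≤ 2 * (P * G) + 4 * L ^ 2 / d ^ 2 * f ^ 2 := by
    rcases le_or_gt |f| d with hle | hgt
    · have := hph hle
      have h0 : 0 ≤ 4 * L ^ 2 / d ^ 2 * f ^ 2 := by positivity
      nlinarith
    · have c1 : d ^ 2 ≤ f ^ 2 := by
        rw [← sq_abs f]
        exact pow_le_pow_left₀ hd.le hgt.le 2
      have c2 : 4 * L ^ 2 ≤ 4 * L ^ 2 / d ^ 2 * f ^ 2 := by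
        rw [div_mul_eq_mul_div, le_div_iff₀ (by positivity)]
        exact mul_le_mul_of_nonneg_left c1 (by positivity)
      have c3 : 0 ≤ P * G := mul_nonneg p0.le hG
      linarith
  have b4 : Z ^ 2 ≤ K ^ 2 := by
    rw [← sq_abs Z]
    exact pow_le_pow_left₀ (abs_nonneg _) hZ 2
  have b5 : Z ^ 2 * V ≤ K ^ 2 * V := mul_le_mul_of_nonneg_right b4 hV
  have b6 : Z ^ 2 * G ≤ Z ^ 2 * (8 / 3 * (U - W) + 8 / 3 * V + 4 * L ^ 2 / d ^ 2 * f ^ 2) :=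
    mul_le_mul_of_nonneg_left (by linarith) (sq_nonneg _)
  have b7 : 4 * L ^ 2 / d ^ 2 * (Z * f) ^ 2 = Z ^ 2 * (4 * L ^ 2 / d ^ 2 * f ^ 2) := by ring
  rw [b7]
  linarith

end H169

open H169

namespace IsDir

variable (hC : IsDir C)
include hC

theorem tr_facts {f : M →ₘ[m] ℝ} {d : ℝ} (hd : 0 < d) (hfW : f ∈ C.W) :
    ∃ w P : M →ₘ[m] ℝ, w ∈ C.A ∧ (∀ g ∈ C.W, C.Γ w g = P * C.Γ f g) ∧
      (∀ᵐ x ∂m, w x = tr d (f x)) ∧ (∀ᵐ x ∂m, P x = tr' d (f x)) := by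
  obtain ⟨hwW, hwΓ⟩ := hC.chain f hfW (tr d) (tr' d) (tr_cont d) (tr'_cont d)
    (fun t => tr_deriv hd t) (tr_zero d) ⟨1, fun t => by
      rw [abs_of_pos (tr'_pos d t)]; exact tr'_le_one d t⟩
  have hwae : ∀ᵐ x ∂m, AEEqFun.comp (tr d) (tr_cont d) f x = tr d (f x) :=
    AEEqFun.coeFn_comp (tr d) (tr_cont d) f
  refine ⟨_, _, ⟨hwW, mem_top_iff.2 ⟨2 * d, ?_⟩⟩, hwΓ, hwae,
    AEEqFun.coeFn_comp (tr' d) (tr'_cont d) f⟩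
  filter_upwards [hwae] with x hx
  rw [hx]; exact abs_tr_le_two hd _

theorem two_mul_ae (a b : M →ₘ[m] ℝ) : ∀ᵐ x ∂m, (2 * a * b) x = 2 * a x * b x := by
  have h20 : (2 : M →ₘ[m] ℝ) = 1 + 1 := by norm_num
  filter_upwards [mul_ae (2 * a) b, mul_ae 2 a, add_ae (1 : M →ₘ[m] ℝ) 1,
    one_ae (m := m)] with x a1 a2 a3 a4
  rw [a1, a2, h20, a3, a4]; ring

theorem grad_aux1 {u ζ w f : M →ₘ[m] ℝ} {L Lam d : ℝ} (hd : 0 < d) (hL0 : 0 ≤ L)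
    (hLam0 : 0 ≤ Lam) (hu : u ∈ C.W) (huL : ∀ᵐ x ∂m, C.Γ u u x ≤ L ^ 2)
    (hLam : ∀ g ∈ C.A, 0 ≤ g → MemLp g 1 m → -I (C.Γ u g) ≤ Lam * I g)
    (hζ : ζ ∈ C.A) (hwA : w ∈ C.A) (hwae : ∀ᵐ x ∂m, w x = tr d (f x)) :
    I (ζ ^ 2 * C.Γ u w) ≤ d * (4 * Lam * I (ζ ^ 2) + 4 * L * C.nrm2 ζ) := by
  have hwW := hwA.1
  have hwtop := hwA.2
  have hζ2 := hC.memLp ζ hζ.1
  obtain ⟨hζsW, hζsΓ⟩ := hC.sq_mem hζ
  have hζs : ζ ^ 2 ∈ C.A := ⟨hζsW, by rw [sq]; exact mem_mul_top hζ.2 hζ.2⟩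
  have hζs1 : MemLp (ζ ^ 2 : M →ₘ[m] ℝ) 1 m := mem_sq hζ2
  set g := (2 * d) • (ζ ^ 2 : M →ₘ[m] ℝ) - ζ ^ 2 * w with hg
  have hgA : g ∈ C.A := hC.A_sub (hC.A_smul _ hζs) (hC.mul_mem_A hζs hwA)
  have hgae : ∀ᵐ x ∂m, g x = ζ x ^ 2 * (2 * d - tr d (f x)) := by
    filter_upwards [sub_ae ((2 * d) • (ζ ^ 2 : M →ₘ[m] ℝ)) (ζ ^ 2 * w),
      smul_ae (ζ ^ 2) (2 * d), mul_ae (ζ ^ 2) w, sq_ae ζ, hwae] with x h1 h2 h3 h4 h5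
    rw [h1, h2, h3, h4, h5]; ring
  have hg0 : 0 ≤ g := by
    rw [nonneg_iff_ae]
    filter_upwards [hgae] with x hx
    rw [hx]
    have := (abs_le.1 (abs_tr_le_two hd (f x))).2
    exact mul_nonneg (sq_nonneg _) (by linarith)
  have hg1 : MemLp g 1 m := mem_sub (mem_smul _ hζs1) (mem_top_mul hζs1 hwtop)
  have h1 := hLam g hgA hg0 hg1
  have hΓ : C.Γ u g = (2 * d) • C.Γ u (ζ ^ 2) - (ζ ^ 2 * C.Γ u w + w * C.Γ u (ζ ^ 2)) := by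
    rw [hg, hC.Γ_sub_right hu (hC.A_smul _ hζs).1 (hC.mul_mem_A hζs hwA).1,
      hC.Γ_smul_right _ hu hζsW, hC.Γ_mul_right hζs hwA hu]
  have hT : C.Γ u (ζ ^ 2) = 2 * ζ * C.Γ ζ u := by
    rw [hC.symm u hu _ hζsW, hζsΓ u hu]
  have hΓζ1 : MemLp (C.Γ u (ζ ^ 2)) 1 m := hC.Γ_mem1 hu hζsW
  have hm1 : MemLp (ζ ^ 2 * C.Γ u w : M →ₘ[m] ℝ) 1 m := mem_mul_top hζs.2 (hC.Γ_mem1 hu hwW)
  have hm2 : MemLp (w * C.Γ u (ζ ^ 2) : M →ₘ[m] ℝ) 1 m := mem_mul_top hwtop hΓζ1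
  have h2 : I (C.Γ u g) = 2 * d * I (C.Γ u (ζ ^ 2)) - (I (ζ ^ 2 * C.Γ u w)
      + I (w * C.Γ u (ζ ^ 2))) := by
    rw [hΓ, I_sub (mem_smul _ hΓζ1) (mem_add hm1 hm2), I_smul, I_add hm1 hm2]
  have h3 : I g ≤ 4 * d * I (ζ ^ 2) := by
    rw [← I_smul]
    refine I_mono hg1 (mem_smul _ hζs1) ?_
    rw [le_iff_ae]
    filter_upwards [hgae, smul_ae (ζ ^ 2) (4 * d), sq_ae ζ] with x h1 h2 h3
    rw [h1, h2, h3]
    have := (abs_le.1 (abs_tr_le_two hd (f x))).1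
    nlinarith [sq_nonneg (ζ x)]
  have h4 : 2 * d * I (C.Γ u (ζ ^ 2)) - I (w * C.Γ u (ζ ^ 2)) ≤ 4 * d * L * C.nrm2 ζ := by
    rw [← I_smul, ← I_sub (mem_smul _ hΓζ1) hm2]
    unfold Calc.nrm2
    rw [← I_add hζs1 (hC.mem1 ζ hζ.1), ← I_smul]
    refine I_mono (mem_sub (mem_smul _ hΓζ1) hm2)
      (mem_smul _ (mem_add hζs1 (hC.mem1 ζ hζ.1))) ?_
    rw [le_iff_ae]
    have h20 : (2 : M →ₘ[m] ℝ) = 1 + 1 := by norm_num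
    filter_upwards [sub_ae ((2 * d) • C.Γ u (ζ ^ 2)) (w * C.Γ u (ζ ^ 2)),
      smul_ae (C.Γ u (ζ ^ 2)) (2 * d), mul_ae w (C.Γ u (ζ ^ 2)),
      smul_ae (ζ ^ 2 + C.Γ ζ ζ) (4 * d * L), add_ae (ζ ^ 2) (C.Γ ζ ζ), sq_ae ζ, hwae,
      hC.Γ_cs_ae hζ.1 hu, hC.Γ_nonneg_ae hζ.1, hC.Γ_nonneg_ae hu, huL,
      (show ∀ᵐ x ∂m, C.Γ u (ζ ^ 2) x = 2 * ζ x * C.Γ ζ u x from by
        rw [hT]
        filter_upwards [mul_ae (2 * ζ) (C.Γ ζ u), mul_ae 2 ζ, add_ae (1 : M →ₘ[m] ℝ) 1,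
          one_ae (m := m)] with x a1 a2 a3 a4
        rw [a1, a2, h20, a3, a4]; ring)]
      with x b1 b2 b3 b4 b5 b6 b7 b8 b9 b10 b11 b12
    rw [b1, b2, b3, b4, b5, b6, b7, b12]
    have c1 := abs_tr_le_two hd (f x)
    rw [abs_le] at c1
    -- |ζ Γ(ζ,u)| ≤ L (ζ² + Γ ζ ζ) / 2
    have c2 : |ζ x * C.Γ ζ u x| ≤ L * (ζ x ^ 2 + C.Γ ζ ζ x) / 2 := by
      refine abs_le_of_sq_le_sq ?_ (by positivity)
      have c3 : C.Γ ζ u x ^ 2 ≤ C.Γ ζ ζ x * L ^ 2 :=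
        b8.trans (mul_le_mul_of_nonneg_left b11 b9)
      have c4 : ζ x ^ 2 * C.Γ ζ u x ^ 2 ≤ ζ x ^ 2 * (C.Γ ζ ζ x * L ^ 2) :=
        mul_le_mul_of_nonneg_left c3 (sq_nonneg _)
      nlinarith [mul_nonneg (sq_nonneg L) (sq_nonneg (ζ x ^ 2 - C.Γ ζ ζ x))]
    have c5 : (2 * d - tr d (f x)) * (2 * (ζ x * C.Γ ζ u x)) ≤
        (4 * d) * (2 * |ζ x * C.Γ ζ u x|) := by
      have c6 : 0 ≤ 2 * d - tr d (f x) := by linarith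
      calc (2 * d - tr d (f x)) * (2 * (ζ x * C.Γ ζ u x))
          ≤ (2 * d - tr d (f x)) * (2 * |ζ x * C.Γ ζ u x|) :=
            mul_le_mul_of_nonneg_left (by linarith [le_abs_self (ζ x * C.Γ ζ u x)]) c6
        _ ≤ (4 * d) * (2 * |ζ x * C.Γ ζ u x|) :=
            mul_le_mul_of_nonneg_right (by linarith) (by positivity)
    nlinarith [c2, c5, hd]
  have h5 : Lam * I g ≤ Lam * (4 * d * I (ζ ^ 2)) := mul_le_mul_of_nonneg_left h3 hLam0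
  nlinarith [h1, h2, h4, h5]

theorem grad_aux2 {f ζ w z h : M →ₘ[m] ℝ} (hζ : ζ ∈ C.A) (hζL : MemLp (C.Γ ζ ζ) ∞ m)
    (hwA : w ∈ C.A) (haw : I ((ζ * w) ^ 2) ≤ I ((ζ * f) ^ 2)) (hz : C.IsLap z h) :
    -I (ζ ^ 2 * C.Γ z w) ≤ Real.sqrt (I ((ζ * f) ^ 2)) *
      (Real.sqrt (I ((ζ * h) ^ 2)) + 2 * Real.sqrt (I (C.Γ z ζ ^ 2))) := by
  obtain ⟨hzW, hh2, hzh⟩ := hz
  have hwW := hwA.1
  have hwtop := hwA.2
  have hw2 := hC.memLp w hwW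
  have hζ2 := hC.memLp ζ hζ.1
  obtain ⟨hζsW, hζsΓ⟩ := hC.sq_mem hζ
  have hζs : ζ ^ 2 ∈ C.A := ⟨hζsW, by rw [sq]; exact mem_mul_top hζ.2 hζ.2⟩
  have hζw2 : MemLp (ζ * w : M →ₘ[m] ℝ) 2 m := mem_mul_top hζ.2 hw2
  have hζh2 : MemLp (ζ * h : M →ₘ[m] ℝ) 2 m := mem_mul_top hζ.2 hh2
  have hA : ζ ^ 2 * w ∈ C.A := hC.mul_mem_A hζs hwA
  have h1 : I (C.Γ z (ζ ^ 2 * w)) = -I (h * (ζ ^ 2 * w)) := hzh _ hA.1
  rw [hC.Γ_mul_right hζs hwA hzW, I_add (mem_mul_top hζs.2 (hC.Γ_mem1 hzW hwW))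
    (mem_mul_top hwtop (hC.Γ_mem1 hzW hζsW))] at h1
  have hΓz2 : MemLp (C.Γ z ζ) 2 m := by
    rw [hC.symm z hzW ζ hζ.1]; exact hC.Γ_mem2 hζ.1 hζL hzW
  have h20 : (2 : M →ₘ[m] ℝ) = 1 + 1 := by norm_num
  have h2 : w * C.Γ z (ζ ^ 2) = (2 : ℝ) • ((ζ * w) * C.Γ z ζ) := by
    rw [hC.symm z hzW _ hζsW, hζsΓ z hzW, hC.symm ζ hζ.1 z hzW, eq_iff_ae]
    filter_upwards [mul_ae w (2 * ζ * C.Γ z ζ), mul_ae (2 * ζ) (C.Γ z ζ), mul_ae 2 ζ,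
      add_ae (1 : M →ₘ[m] ℝ) 1, one_ae (m := m), smul_ae (ζ * w * C.Γ z ζ) 2,
      mul_ae (ζ * w) (C.Γ z ζ), mul_ae ζ w] with x a1 a2 a3 a4 a5 a6 a7 a8
    rw [a1, a2, a3, h20, a4, a5, a6, a7, a8]; ring
  have h3 : h * (ζ ^ 2 * w) = (ζ * h) * (ζ * w) := by ring
  rw [h2, I_smul, h3] at h1
  have h4 := I_abs_le hζh2 hζw2
  have h5 := I_abs_le hζw2 hΓz2
  have h6 : Real.sqrt (I ((ζ * w) ^ 2)) ≤ Real.sqrt (I ((ζ * f) ^ 2)) :=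
    Real.sqrt_le_sqrt haw
  have h7 := (abs_le.1 h4).2
  have h8 := (abs_le.1 h5).2
  have h9 := Real.sqrt_nonneg (I ((ζ * h) ^ 2))
  have h10 := Real.sqrt_nonneg (I (C.Γ z ζ ^ 2))
  have h11 := mul_le_mul_of_nonneg_left h6 h9
  have h12 := mul_le_mul_of_nonneg_right h6 h10
  nlinarith [h1, h7, h8, h11, h12]

theorem grad_sub_bd {u v : M →ₘ[m] ℝ} {L : ℝ} (hu : u ∈ C.W) (hv : v ∈ C.W)
    (huL : ∀ᵐ x ∂m, C.Γ u u x ≤ L ^ 2) (hvL : ∀ᵐ x ∂m, C.Γ v v x ≤ L ^ 2) :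
    ∀ᵐ x ∂m, C.Γ (u - v) (u - v) x ≤ 4 * L ^ 2 := by
  have a0 : C.Γ (u - v) (u - v) = C.Γ u u - C.Γ u v - (C.Γ v u - C.Γ v v) := by
    rw [hC.Γ_sub_left hu hv (hC.sub_mem hu hv), hC.Γ_sub_right hu hu hv,
      hC.Γ_sub_right hv hu hv]
  rw [a0, hC.symm v hv u hu]
  filter_upwards [sub_ae (C.Γ u u - C.Γ u v) (C.Γ u v - C.Γ v v), sub_ae (C.Γ u u) (C.Γ u v),
    sub_ae (C.Γ u v) (C.Γ v v), huL, hvL, hC.Γ_cs_ae hu hv, hC.Γ_nonneg_ae hu,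
    hC.Γ_nonneg_ae hv] with x a1 a2 a3 a4 a5 a6 a7 a8
  rw [a1, a2, a3]
  have a9 : |C.Γ u v x| ≤ L ^ 2 := by
    refine abs_le_of_sq_le_sq ?_ (sq_nonneg _)
    calc C.Γ u v x ^ 2 ≤ C.Γ u u x * C.Γ v v x := a6
      _ ≤ L ^ 2 * L ^ 2 := mul_le_mul a4 a5 a8 (sq_nonneg _)
      _ = (L ^ 2) ^ 2 := by ring
  linarith [(abs_le.1 a9).1]

theorem grad_aux3 {u v ζ w P z : M →ₘ[m] ℝ} {L K d : ℝ} (hd : 0 < d)
    (hu : u ∈ C.W) (hv : v ∈ C.W) (hzW : z ∈ C.W)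
    (huL : ∀ᵐ x ∂m, C.Γ u u x ≤ L ^ 2) (hvL : ∀ᵐ x ∂m, C.Γ v v x ≤ L ^ 2)
    (hζ : ζ ∈ C.A) (hK : ∀ᵐ x ∂m, |ζ x| ≤ K) (hwA : w ∈ C.A)
    (hwΓ : ∀ g ∈ C.W, C.Γ w g = P * C.Γ (u - v) g)
    (hPae : ∀ᵐ x ∂m, P x = tr' d ((u - v) x)) :
    I (ζ ^ 2 * C.Γ (u - v) (u - v)) ≤ 8 / 3 * (I (ζ ^ 2 * C.Γ u w) - I (ζ ^ 2 * C.Γ z w)
      + K ^ 2 * I (C.Γ (v - z) (v - z))) + 4 * L ^ 2 / d ^ 2 * I ((ζ * (u - v)) ^ 2) := by
  have e4 := hC.grad_sub_bd hu hv huL hvL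
  have hfW : u - v ∈ C.W := hC.sub_mem hu hv
  have e1 : C.Γ (u - v) w = C.Γ u w - C.Γ z w - C.Γ (v - z) w := by
    rw [hC.Γ_sub_left hu hv hwA.1, hC.Γ_sub_left hv hzW hwA.1]; ring
  have hvz : v - z ∈ C.W := hC.sub_mem hv hzW
  have hff : C.Γ (u - v) w = P * C.Γ (u - v) (u - v) := by
    rw [hC.symm _ hfW w hwA.1, hwΓ _ hfW]
  have hfz : C.Γ (v - z) w = P * C.Γ (u - v) (v - z) := by
    rw [hC.symm _ hvz w hwA.1, hwΓ _ hvz]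
  rw [hff, hfz] at e1
  have hG1 := hC.mem1 _ hfW
  have hcs := hC.Γ_cs_ae hfW hvz
  have hG0 := hC.Γ_nonneg_ae hfW
  have hV0 := hC.Γ_nonneg_ae hvz
  have m3 : MemLp (C.Γ (v - z) (v - z)) 1 m := hC.mem1 _ hvz
  have hf2 := hC.memLp _ hfW
  have m4 : MemLp ((ζ * (u - v)) ^ 2 : M →ₘ[m] ℝ) 1 m := mem_sq (mem_mul_top hζ.2 hf2)
  have hζs : MemLp (ζ ^ 2 : M →ₘ[m] ℝ) ∞ m := by rw [sq]; exact mem_mul_top hζ.2 hζ.2
  have m1 : MemLp (ζ ^ 2 * C.Γ u w : M →ₘ[m] ℝ) 1 m := mem_mul_top hζs (hC.Γ_mem1 hu hwA.1)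
  have m2 : MemLp (ζ ^ 2 * C.Γ z w : M →ₘ[m] ℝ) 1 m := mem_mul_top hζs (hC.Γ_mem1 hzW hwA.1)
  have m5 : MemLp (ζ ^ 2 * C.Γ (u - v) (u - v) : M →ₘ[m] ℝ) 1 m := mem_mul_top hζs hG1
  generalize C.Γ (u - v) (u - v) = G at *
  generalize C.Γ (v - z) (v - z) = V at *
  generalize C.Γ (u - v) (v - z) = D at *
  generalize C.Γ u w = U at *
  generalize C.Γ z w = W at *
  generalize u - v = f at *
  rw [← I_smul (K ^ 2), ← I_sub m1 m2, ← I_add (mem_sub m1 m2) (mem_smul _ m3), ← I_smul,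
    ← I_smul (4 * L ^ 2 / d ^ 2), ← I_add (mem_smul _ (mem_add (mem_sub m1 m2)
      (mem_smul _ m3))) (mem_smul _ m4)]
  refine I_mono m5 (mem_add (mem_smul _ (mem_add
    (mem_sub m1 m2) (mem_smul _ m3))) (mem_smul _ m4)) ?_
  rw [le_iff_ae]
  have e1' : ∀ᵐ x ∂m, P x * G x = U x - W x - P x * D x := by
    filter_upwards [eq_iff_ae.1 e1, mul_ae P G, sub_ae (U - W) (P * D), sub_ae U W,
      mul_ae P D] with x a1 a2 a3 a4 a5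
    rw [← a2, a1, a3, a4, a5]
  have f1 : ∀ᵐ x ∂m, ((8 / 3 : ℝ) • (ζ ^ 2 * U - ζ ^ 2 * W + K ^ 2 • V)
      + (4 * L ^ 2 / d ^ 2) • ((ζ * f) ^ 2 : M →ₘ[m] ℝ)) x
      = 8 / 3 * (ζ x ^ 2 * U x - ζ x ^ 2 * W x + K ^ 2 * V x)
        + 4 * L ^ 2 / d ^ 2 * (ζ x * f x) ^ 2 := by
    filter_upwards [add_ae ((8 / 3 : ℝ) • (ζ ^ 2 * U - ζ ^ 2 * W + K ^ 2 • V))
        ((4 * L ^ 2 / d ^ 2) • ((ζ * f) ^ 2 : M →ₘ[m] ℝ)),
      smul_ae (ζ ^ 2 * U - ζ ^ 2 * W + K ^ 2 • V) (8 / 3),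
      add_ae (ζ ^ 2 * U - ζ ^ 2 * W) (K ^ 2 • V),
      sub_ae (ζ ^ 2 * U) (ζ ^ 2 * W), smul_ae V (K ^ 2),
      smul_ae ((ζ * f) ^ 2 : M →ₘ[m] ℝ) (4 * L ^ 2 / d ^ 2), sq_ae (ζ * f), mul_ae ζ f,
      mul_ae (ζ ^ 2) U, mul_ae (ζ ^ 2) W, sq_ae ζ] with x a2 a3 a4 a5 a6 a7 a8 a9 a10 a11 a12
    rw [a2, a3, a4, a5, a6, a7, a8, a9, a10, a11, a12]
  filter_upwards [mul_ae (ζ ^ 2) G, sq_ae ζ, f1, e1', e4, hPae, hcs, hG0, hV0, hK]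
    with x a1 a12 a2 a13 a16 a17 a18 a19 a20 a21
  rw [a1, a12, a2]
  exact pt_ineq hd (by rw [a17]; exact tr'_pos _ _) (by rw [a17]; exact tr'_le_one _ _)
    (fun h => by rw [a17]; exact tr'_half hd h) a19 a20 a18 a13 a16 a21

/-- The quantitative form. -/
theorem grad_aux {u v ζ z h : M →ₘ[m] ℝ} {L Lam K d : ℝ} (hd : 0 < d) (hL0 : 0 ≤ L)
    (hLam0 : 0 ≤ Lam) (hu : u ∈ C.W) (hv : v ∈ C.W)
    (huL : ∀ᵐ x ∂m, C.Γ u u x ≤ L ^ 2) (hvL : ∀ᵐ x ∂m, C.Γ v v x ≤ L ^ 2)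
    (hLam : ∀ g ∈ C.A, 0 ≤ g → MemLp g 1 m → -I (C.Γ u g) ≤ Lam * I g)
    (hζ : ζ ∈ C.A) (hK : ∀ᵐ x ∂m, |ζ x| ≤ K) (hζL : MemLp (C.Γ ζ ζ) ∞ m) (hz : C.IsLap z h) :
    I (ζ ^ 2 * C.Γ (u - v) (u - v)) ≤
      8 / 3 * (d * (4 * Lam * I (ζ ^ 2) + 4 * L * C.nrm2 ζ)
        + Real.sqrt (I ((ζ * (u - v)) ^ 2)) * (Real.sqrt (I ((ζ * h) ^ 2))
          + 2 * Real.sqrt (I (C.Γ z ζ ^ 2))) + K ^ 2 * I (C.Γ (v - z) (v - z)))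
      + 4 * L ^ 2 / d ^ 2 * I ((ζ * (u - v)) ^ 2) := by
  have hfW : u - v ∈ C.W := hC.sub_mem hu hv
  have hf2 := hC.memLp _ hfW
  obtain ⟨w, P, hwA, hwΓ, hwae, hPae⟩ := hC.tr_facts hd hfW
  have hw2 := hC.memLp w hwA.1
  have haw : I ((ζ * w) ^ 2) ≤ I ((ζ * (u - v)) ^ 2) := by
    refine I_mono (mem_sq (mem_mul_top hζ.2 hw2)) (mem_sq (mem_mul_top hζ.2 hf2)) ?_
    rw [le_iff_ae]
    filter_upwards [sq_ae (ζ * w), sq_ae (ζ * (u - v)), mul_ae ζ w, mul_ae ζ (u - v), hwae]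
      with x h1 h2 h3 h4 h5
    rw [h1, h2, h3, h4, mul_pow, mul_pow, h5]
    refine mul_le_mul_of_nonneg_left ?_ (sq_nonneg _)
    have := abs_tr_le hd ((u - v) x)
    rw [← sq_abs (tr d ((u - v) x)), ← sq_abs ((u - v) x)]
    exact pow_le_pow_left₀ (abs_nonneg _) this 2
  have F1 := hC.grad_aux1 hd hL0 hLam0 hu huL hLam hζ hwA hwae
  have F2 := hC.grad_aux2 hζ hζL hwA haw hz
  have F3 := hC.grad_aux3 hd hu hv hz.1 huL hvL hζ hK hwA hwΓ hPae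
  have hF : 8 / 3 * (I (ζ ^ 2 * C.Γ u w) - I (ζ ^ 2 * C.Γ z w)
      + K ^ 2 * I (C.Γ (v - z) (v - z))) ≤ 8 / 3 * (d * (4 * Lam * I (ζ ^ 2) + 4 * L * C.nrm2 ζ)
        + Real.sqrt (I ((ζ * (u - v)) ^ 2)) * (Real.sqrt (I ((ζ * h) ^ 2))
          + 2 * Real.sqrt (I (C.Γ z ζ ^ 2))) + K ^ 2 * I (C.Γ (v - z) (v - z))) := by
    refine mul_le_mul_of_nonneg_left ?_ (by norm_num)
    linarith
  linarith

/-- **A5(i)**: strong convergence of the gradients. -/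
theorem tendsto_grad' {ι : Type*} {l : Filter ι} {u : ι → M →ₘ[m] ℝ} {v ζ : M →ₘ[m] ℝ}
    {L Lam : ℝ} (hL0 : 0 ≤ L) (hLam0 : 0 ≤ Lam) (hv : v ∈ C.W)
    (hvL : ∀ᵐ x ∂m, C.Γ v v x ≤ L ^ 2)
    (hu : ∀ᶠ n in l, u n ∈ C.W ∧ (∀ᵐ x ∂m, C.Γ (u n) (u n) x ≤ L ^ 2) ∧
      ∀ g ∈ C.A, 0 ≤ g → MemLp g 1 m → -I (C.Γ (u n) g) ≤ Lam * I g)
    (hζ : ζ ∈ C.A) (hζL : MemLp (C.Γ ζ ζ) ∞ m)
    (h0 : Tendsto (fun n => I ((ζ * (u n - v)) ^ 2)) l (𝓝 0)) :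
    Tendsto (fun n => I (ζ ^ 2 * C.Γ (u n - v) (u n - v))) l (𝓝 0) := by
  obtain ⟨K, hK⟩ := mem_top_iff.1 hζ.2
  have hv2 := hC.memLp v hv
  set C1 := 4 * Lam * I (ζ ^ 2) + 4 * L * C.nrm2 ζ with hC1
  have hC10 : 0 ≤ C1 := by
    have := I_sq_nonneg ζ
    have := hC.nrm2_nonneg hζ.1
    positivity
  rw [tendsto_order]
  constructor
  · intro a ha
    filter_upwards [hu] with n hn
    refine ha.trans_le (I_nonneg ?_)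
    rw [nonneg_iff_ae]
    filter_upwards [mul_ae (ζ ^ 2) (C.Γ (u n - v) (u n - v)), sq_ae ζ,
      hC.Γ_nonneg_ae (hC.sub_mem hn.1 hv)] with x h1 h2 h3
    rw [h1, h2]
    exact mul_nonneg (sq_nonneg _) h3
  · intro ε hε
    -- choice of d
    obtain ⟨d, hd, hd1⟩ : ∃ d > 0, 8 / 3 * (d * C1) ≤ ε / 5 := by
      refine ⟨ε / 5 / (8 / 3 * (C1 + 1)), by positivity, ?_⟩
      have h1 : 8 / 3 * (ε / 5 / (8 / 3 * (C1 + 1)) * C1) = ε / 5 * (C1 / (C1 + 1)) := by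
        field_simp
      rw [h1]
      have h2 : C1 / (C1 + 1) ≤ 1 := by rw [div_le_one (by positivity)]; linarith
      calc ε / 5 * (C1 / (C1 + 1)) ≤ ε / 5 * 1 := mul_le_mul_of_nonneg_left h2 (by positivity)
        _ = ε / 5 := mul_one _
    -- choice of z
    obtain ⟨k, hk⟩ : ∃ k : ℕ, C.nrm2 (C.J ((k : ℝ) + 1)⁻¹ v - v) < ε / 5 / (8 / 3 * (K ^ 2 + 1)) :=
      ((hC.J_tendsto_W hv).eventually (gt_mem_nhds (by positivity))).exists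
    have hl : (0 : ℝ) < ((k : ℝ) + 1)⁻¹ := by positivity
    have hz := hC.J_isLap hl hv2
    set z := C.J ((k : ℝ) + 1)⁻¹ v with hzdef
    set h : M →ₘ[m] ℝ := (((k : ℝ) + 1)⁻¹)⁻¹ • (z - v) with hh
    have hzv : 8 / 3 * (K ^ 2 * I (C.Γ (v - z) (v - z))) ≤ ε / 5 := by
      have h1 : I (C.Γ (v - z) (v - z)) ≤ ε / 5 / (8 / 3 * (K ^ 2 + 1)) := by
        refine (hC.E_le_nrm2 _).trans ?_
        rw [hC.nrm2_sub_comm hv hz.1]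
        exact hk.le
      have h2 : 0 ≤ I (C.Γ (v - z) (v - z)) := hC.E_nonneg (hC.sub_mem hv hz.1)
      have h3 : 8 / 3 * (K ^ 2 * I (C.Γ (v - z) (v - z))) ≤
          8 / 3 * ((K ^ 2 + 1) * (ε / 5 / (8 / 3 * (K ^ 2 + 1)))) := by
        refine mul_le_mul_of_nonneg_left ?_ (by norm_num)
        exact mul_le_mul (by linarith) h1 h2 (by positivity)
      have h4 : 8 / 3 * ((K ^ 2 + 1) * (ε / 5 / (8 / 3 * (K ^ 2 + 1)))) = ε / 5 := by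
        field_simp
      linarith
    set B := Real.sqrt (I ((ζ * h) ^ 2)) + 2 * Real.sqrt (I (C.Γ z ζ ^ 2)) with hB
    -- the remaining terms
    have hs : Tendsto (fun n => Real.sqrt (I ((ζ * (u n - v)) ^ 2))) l (𝓝 0) := by
      have := (Real.continuous_sqrt.tendsto 0).comp h0
      rwa [Real.sqrt_zero] at this
    have h1 : Tendsto (fun n => 8 / 3 * (Real.sqrt (I ((ζ * (u n - v)) ^ 2)) * B)
        + 4 * L ^ 2 / d ^ 2 * I ((ζ * (u n - v)) ^ 2)) l (𝓝 0) := by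
      have := ((hs.mul_const B).const_mul (8 / 3)).add (h0.const_mul (4 * L ^ 2 / d ^ 2))
      simpa using this
    filter_upwards [h1.eventually (gt_mem_nhds (show (0 : ℝ) < ε / 5 by positivity)), hu]
      with n hn1 hn
    have h2 := hC.grad_aux hd hL0 hLam0 hn.1 hv hn.2.1 hvL hn.2.2 hζ hK hζL hz
    have h3 : 8 / 3 * (d * (4 * Lam * I (ζ ^ 2) + 4 * L * C.nrm2 ζ)
        + Real.sqrt (I ((ζ * (u n - v)) ^ 2)) * (Real.sqrt (I ((ζ * h) ^ 2))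
          + 2 * Real.sqrt (I (C.Γ z ζ ^ 2))) + K ^ 2 * I (C.Γ (v - z) (v - z)))
        = 8 / 3 * (d * C1) + 8 / 3 * (Real.sqrt (I ((ζ * (u n - v)) ^ 2)) * B)
          + 8 / 3 * (K ^ 2 * I (C.Γ (v - z) (v - z))) := by
      rw [hC1, hB]; ring
    rw [h3] at h2
    linarith

/-- A5(i) for Laplacians bounded from above. -/
theorem tendsto_grad {ι : Type*} {l : Filter ι} {u : ι → M →ₘ[m] ℝ} {v ζ : M →ₘ[m] ℝ}
    {L Lam : ℝ} (hu : ∀ n, u n ∈ C.W) (hv : v ∈ C.W)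
    (huL : ∀ n, ∀ᵐ x ∂m, C.Γ (u n) (u n) x ≤ L ^ 2) (hvL : ∀ᵐ x ∂m, C.Γ v v x ≤ L ^ 2)
    (hLam : ∀ n, ∀ g ∈ C.A, 0 ≤ g → MemLp g 1 m → -I (C.Γ (u n) g) ≤ Lam * I g)
    (hζ : ζ ∈ C.A) (hζL : MemLp (C.Γ ζ ζ) ∞ m)
    (h0 : Tendsto (fun n => I (ζ ^ 2 * (u n - v) ^ 2)) l (𝓝 0)) :
    Tendsto (fun n => I (ζ ^ 2 * C.Γ (u n - v) (u n - v))) l (𝓝 0) := by
  refine hC.tendsto_grad' (L := |L|) (Lam := |Lam|) (abs_nonneg _) (abs_nonneg _) hv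
    (by rwa [sq_abs]) (Eventually.of_forall fun n => ⟨hu n, by rw [sq_abs]; exact huL n,
      fun g hg g0 g1 => ?_⟩) hζ hζL ?_
  · refine (hLam n g hg g0 g1).trans (mul_le_mul_of_nonneg_right (le_abs_self _) (I_nonneg g0))
  · refine h0.congr fun n => ?_
    rw [mul_pow]

/-- A5(i) for Laplacians bounded from below. -/
theorem tendsto_grad_of_ge {ι : Type*} {l : Filter ι} {u : ι → M →ₘ[m] ℝ} {v ζ : M →ₘ[m] ℝ}
    {L Lam : ℝ} (hu : ∀ n, u n ∈ C.W) (hv : v ∈ C.W)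
    (huL : ∀ n, ∀ᵐ x ∂m, C.Γ (u n) (u n) x ≤ L ^ 2) (hvL : ∀ᵐ x ∂m, C.Γ v v x ≤ L ^ 2)
    (hLam : ∀ n, ∀ g ∈ C.A, 0 ≤ g → MemLp g 1 m → I (C.Γ (u n) g) ≤ Lam * I g)
    (hζ : ζ ∈ C.A) (hζL : MemLp (C.Γ ζ ζ) ∞ m)
    (h0 : Tendsto (fun n => I (ζ ^ 2 * (u n - v) ^ 2)) l (𝓝 0)) :
    Tendsto (fun n => I (ζ ^ 2 * C.Γ (u n - v) (u n - v))) l (𝓝 0) := by
  have e1 : ∀ n, -u n - -v = -(u n - v) := fun n => by abel
  have e2 : ∀ a ∈ C.W, C.Γ (-a) (-a) = C.Γ a a := fun a ha => by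
    rw [hC.Γ_neg_left ha (hC.neg_mem ha), hC.Γ_neg_right ha ha, neg_neg]
  have h1 := hC.tendsto_grad (l := l) (u := fun n => -u n) (v := -v) (L := L) (Lam := Lam)
    (fun n => hC.neg_mem (hu n)) (hC.neg_mem hv) (fun n => by rw [e2 _ (hu n)]; exact huL n)
    (by rw [e2 _ hv]; exact hvL) (fun n g hg g0 g1 => by
      rw [hC.Γ_neg_left (hu n) hg.1, I_neg, neg_neg]; exact hLam n g hg g0 g1) hζ hζL
    (h0.congr fun n => by rw [e1, neg_sq])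
  refine h1.congr fun n => ?_
  rw [e1, e2 _ (hC.sub_mem (hu n) hv)]

/-- Strong convergence of gradients gives `L¹` convergence of the products `⟨∇ u n, ∇ h⟩`. -/
theorem tendsto_grad_prod {ι : Type*} {l : Filter ι} {u : ι → M →ₘ[m] ℝ} {v ζ h : M →ₘ[m] ℝ}
    (hu : ∀ᶠ n in l, u n ∈ C.W) (hv : v ∈ C.W) (hh : h ∈ C.W) (hζ : ζ ∈ C.A)
    (h0 : Tendsto (fun n => I (ζ ^ 2 * C.Γ (u n - v) (u n - v))) l (𝓝 0)) :
    Tendsto (fun n => I (ζ ^ 2 * |C.Γ (u n) h - C.Γ v h|)) l (𝓝 0) := by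
  obtain ⟨K, hK⟩ := mem_top_iff.1 hζ.2
  have hζs : MemLp (ζ ^ 2 : M →ₘ[m] ℝ) ∞ m := by rw [sq]; exact mem_mul_top hζ.2 hζ.2
  have habs : ∀ a : M →ₘ[m] ℝ, ∀ᵐ x ∂m, (|a| : M →ₘ[m] ℝ) x = |a x| := fun a =>
    AEEqFun.coeFn_abs a
  rw [tendsto_order]
  constructor
  · intro a ha
    filter_upwards [hu] with n hn
    refine ha.trans_le (I_nonneg ?_)
    rw [nonneg_iff_ae]
    filter_upwards [mul_ae (ζ ^ 2) |C.Γ (u n) h - C.Γ v h|, sq_ae ζ,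
      habs (C.Γ (u n) h - C.Γ v h)] with x h1 h2 h3
    rw [h1, h2, h3]
    positivity
  · intro ε hε
    set E := K ^ 2 * I (C.Γ h h) with hE
    have hE0 : 0 ≤ E := mul_nonneg (sq_nonneg _) (hC.E_nonneg hh)
    obtain ⟨τ, hτ, hτ1⟩ : ∃ τ > 0, τ * E ≤ ε / 3 := by
      refine ⟨ε / 3 / (E + 1), by positivity, ?_⟩
      rw [div_mul_eq_mul_div, div_le_iff₀ (by positivity)]
      nlinarith
    have h1 : Tendsto (fun n => τ⁻¹ * I (ζ ^ 2 * C.Γ (u n - v) (u n - v))) l (𝓝 0) := by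
      simpa using h0.const_mul τ⁻¹
    filter_upwards [h1.eventually (gt_mem_nhds (show (0 : ℝ) < ε / 3 by positivity)), hu]
      with n hn1 hn
    have hnv := hC.sub_mem hn hv
    have m1 : MemLp (ζ ^ 2 * C.Γ (u n - v) (u n - v) : M →ₘ[m] ℝ) 1 m :=
      mem_mul_top hζs (hC.mem1 _ hnv)
    have m2 : MemLp (C.Γ h h) 1 m := hC.mem1 h hh
    have m3 : MemLp (ζ ^ 2 * |C.Γ (u n) h - C.Γ v h| : M →ₘ[m] ℝ) 1 m := by
      refine mem_mul_top hζs (mem_of_le (mem_sub (hC.Γ_mem1 hn hh) (hC.Γ_mem1 hv hh)) ?_)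
      filter_upwards [habs (C.Γ (u n) h - C.Γ v h)] with x hx
      rw [hx, abs_abs]
    have h2 : I (ζ ^ 2 * |C.Γ (u n) h - C.Γ v h|) ≤
        τ⁻¹ * I (ζ ^ 2 * C.Γ (u n - v) (u n - v)) + τ * K ^ 2 * I (C.Γ h h) := by
      rw [← I_smul, ← I_smul, ← I_add (mem_smul _ m1) (mem_smul _ m2)]
      refine I_mono m3 (mem_add (mem_smul _ m1) (mem_smul _ m2)) ?_
      rw [← hC.Γ_sub_left hn hv hh, le_iff_ae]
      filter_upwards [mul_ae (ζ ^ 2) |C.Γ (u n - v) h|, sq_ae ζ, habs (C.Γ (u n - v) h),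
        add_ae (τ⁻¹ • (ζ ^ 2 * C.Γ (u n - v) (u n - v))) ((τ * K ^ 2) • C.Γ h h),
        smul_ae (ζ ^ 2 * C.Γ (u n - v) (u n - v)) τ⁻¹, smul_ae (C.Γ h h) (τ * K ^ 2),
        mul_ae (ζ ^ 2) (C.Γ (u n - v) (u n - v)), hC.Γ_cs_ae hnv hh, hC.Γ_nonneg_ae hnv,
        hC.Γ_nonneg_ae hh, hK] with x a1 a2 a3 a4 a5 a6 a7 a8 a9 a10 a11
      rw [a1, a2, a3, a4, a5, a6, a7, a2]
      have b1 : |C.Γ (u n - v) h x| ≤ τ⁻¹ * C.Γ (u n - v) (u n - v) x + τ * C.Γ h h x := by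
        refine abs_le_of_sq_le_sq ?_ (by positivity)
        have b2 : τ⁻¹ * τ = 1 := inv_mul_cancel₀ hτ.ne'
        have b3 : C.Γ (u n - v) (u n - v) x * C.Γ h h x =
            (τ⁻¹ * C.Γ (u n - v) (u n - v) x) * (τ * C.Γ h h x) := by
          calc C.Γ (u n - v) (u n - v) x * C.Γ h h x
              = (τ⁻¹ * τ) * (C.Γ (u n - v) (u n - v) x * C.Γ h h x) := by rw [b2, one_mul]
            _ = _ := by ring
        rw [b3] at a8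
        have b4 : 0 ≤ τ⁻¹ * C.Γ (u n - v) (u n - v) x := by positivity
        have b5 : 0 ≤ τ * C.Γ h h x := by positivity
        nlinarith
      have b6 : ζ x ^ 2 ≤ K ^ 2 := by
        rw [← sq_abs (ζ x)]
        exact pow_le_pow_left₀ (abs_nonneg _) a11 2
      have b7 : ζ x ^ 2 * |C.Γ (u n - v) h x| ≤ ζ x ^ 2 * (τ⁻¹ * C.Γ (u n - v) (u n - v) x
          + τ * C.Γ h h x) := mul_le_mul_of_nonneg_left b1 (sq_nonneg _)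
      have b8 : ζ x ^ 2 * (τ * C.Γ h h x) ≤ K ^ 2 * (τ * C.Γ h h x) :=
        mul_le_mul_of_nonneg_right b6 (by positivity)
      linarith
    rw [hE] at hτ1
    linarith

end IsDir

end Vale.Agent.P233
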